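import Vale.Agent.P295.Stable

namespace Vale.Agent.Results.P295.Counterexample

/-- `f` is a coordinate of `ℂ[x_1, …, x_n]`: it is one of `n` polynomials that generate the
ring as a `ℂ`-algebra. -/
def IsCoordinate {n : ℕ} (f : MvPolynomial (Fin n) ℂ) : Prop :=
  ∃ g : Fin n → MvPolynomial (Fin n) ℂ, f ∈ Set.range g ∧ Algebra.adjoin ℂ (Set.range g) = ⊤

/-- `f` is an `m`-stable coordinate: a coordinate of the polynomial ring with `m` new variables. -/
def IsStableCoordinateWith {n : ℕ} (m : ℕ) (f : MvPolynomial (Fin n) ℂ) : Prop :=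
  IsCoordinate (MvPolynomial.rename (Fin.castAdd m) f : MvPolynomial (Fin (n + m)) ℂ)

/-- `f` is a stable coordinate: an `m`-stable coordinate for some `m ≥ 1`. -/
def IsStableCoordinate {n : ℕ} (f : MvPolynomial (Fin n) ℂ) : Prop :=
  ∃ m : ℕ, 1 ≤ m ∧ IsStableCoordinateWith m f

theorem result :
    (∃ f : MvPolynomial (Fin 5) ℂ, IsStableCoordinateWith 1 f ∧ ¬ IsCoordinate f) ∧
    ¬ (∀ n : ℕ, 1 ≤ n → ∀ f : MvPolynomial (Fin n) ℂ, IsStableCoordinate f → IsCoordinate f) := by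
  have h1 : IsStableCoordinateWith 1 Vale.Agent.P295.HH := by
    obtain ⟨g, hg0, hg⟩ := Vale.Agent.P295.stable_coord
    exact ⟨g, ⟨0, hg0⟩, hg⟩
  have h2 : ¬ IsCoordinate Vale.Agent.P295.HH := by
    rintro ⟨g, ⟨i, hi⟩, hg⟩
    exact Vale.Agent.P295.not_coord g i hi hg
  exact ⟨⟨_, h1, h2⟩, fun h => h2 (h 5 (by norm_num) _ ⟨1, le_rfl, h1⟩)⟩

end Vale.Agent.Results.P295.Counterexample
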